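import Vale.Agent.Lib.P254.Two.Reduce

/-!
# P254: two planes of symmetry, the reduction with the free coordinate first

The same reduction as in `Two/Reduce.lean`, for convex bodies `K ⊆ ℝ³` invariant under the sign
changes of the coordinates `1` and `2` (no symmetry in the coordinate `0`), so that the slices
`sec K t` (which fix the coordinate `0`) can be used directly; and the moment inequality in slice
form.
-/

open MeasureTheory Set

namespace Vale.Agent.Lib.P254.Two

open Vale.Agent.Lib.P254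

/-- The centred second moment of the first coordinate. -/
noncomputable def cm0 (K : Set (Fin 3 → ℝ)) : ℝ := ∫ x in K, (x 0 - centroid K 0) ^ 2

lemma cm0_nonneg (K : Set (Fin 3 → ℝ)) : 0 ≤ cm0 K :=
  integral_nonneg fun _ => sq_nonneg _

/-- The covariance matrix of a set in `ℝ³` invariant under the sign changes of the last two
coordinates is diagonal. -/
theorem covMatrix_two_flip0 {K : Set (Fin 3 → ℝ)}
    (h1 : ∀ x ∈ K, Function.update x 1 (-(x 1)) ∈ K)
    (h2 : ∀ x ∈ K, Function.update x 2 (-(x 2)) ∈ K) :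
    covMatrix K = Matrix.diagonal
      ![(vol K)⁻¹ * cm0 K, (vol K)⁻¹ * m2 K 1, (vol K)⁻¹ * m2 K 2] := by
  ext a b
  unfold covMatrix
  rw [Matrix.of_apply]
  by_cases hab : a = b
  · subst hab
    rw [Matrix.diagonal_apply_eq]
    fin_cases a
    · show (vol K)⁻¹ * ∫ x in K, (x 0 - centroid K 0) * (x 0 - centroid K 0)
        = (vol K)⁻¹ * cm0 K
      unfold cm0
      congr 2
      funext x
      ring
    · show (vol K)⁻¹ * ∫ x in K, (x 1 - centroid K 1) * (x 1 - centroid K 1)
        = (vol K)⁻¹ * m2 K 1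
      rw [centroid_zero 1 h1]
      unfold m2
      congr 2
      funext x
      ring
    · show (vol K)⁻¹ * ∫ x in K, (x 2 - centroid K 2) * (x 2 - centroid K 2)
        = (vol K)⁻¹ * m2 K 2
      rw [centroid_zero 2 h2]
      unfold m2
      congr 2
      funext x
      ring
  · rw [Matrix.diagonal_apply_ne _ hab]
    have hz : ∫ x in K, (x a - centroid K a) * (x b - centroid K b) = 0 := by
      by_cases ha1 : a = 1
      · subst ha1
        exact cov_entry_zero h1 (Ne.symm hab)
      · by_cases ha2 : a = 2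
        · subst ha2
          exact cov_entry_zero h2 (Ne.symm hab)
        · by_cases hb1 : b = 1
          · subst hb1
            exact cov_entry_zero' h1 hab
          · by_cases hb2 : b = 2
            · subst hb2
              exact cov_entry_zero' h2 hab
            · exfalso
              have ha0 : a = 0 := by
                fin_cases a
                · rfl
                · exact absurd rfl ha1
                · exact absurd rfl ha2
              have hb0 : b = 0 := by
                fin_cases b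
                · rfl
                · exact absurd rfl hb1
                · exact absurd rfl hb2
              exact hab (ha0.trans hb0.symm)
    rw [hz, mul_zero]

/-- The centred second moment of the first coordinate in terms of the raw moments. -/
theorem vol_mul_cm0 {K : Set (Fin 3 → ℝ)} (hK : IsCompact K) (hV : 0 < vol K) :
    vol K * cm0 K = vol K * (∫ x in K, (x 0) ^ 2) - (∫ x in K, x 0) ^ 2 := by
  have hi1 : IntegrableOn (fun x : Fin 3 → ℝ => x 0) K :=
    (continuous_apply 0).continuousOn.integrableOn_compact hK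
  have hi2 : IntegrableOn (fun x : Fin 3 → ℝ => (x 0) ^ 2) K :=
    ((continuous_apply 0).pow 2).continuousOn.integrableOn_compact hK
  have hic : IntegrableOn (fun _ : Fin 3 → ℝ => (1 : ℝ)) K :=
    integrableOn_const hK.measure_lt_top.ne
  set c := centroid K 0 with hc
  have hone : ∫ _ in K, (1 : ℝ) = vol K := by
    rw [setIntegral_const]
    simp [vol, Measure.real]
  have hexp : cm0 K = (∫ x in K, (x 0) ^ 2) - 2 * c * (∫ x in K, x 0) + c ^ 2 * vol K := by
    unfold cm0
    have e : (fun x : Fin 3 → ℝ => (x 0 - c) ^ 2)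
        = fun x => ((x 0) ^ 2 - 2 * c * x 0) + c ^ 2 * 1 := by
      funext x
      ring
    have hA : ∫ x in K, ((x 0) ^ 2 - 2 * c * x 0 + c ^ 2 * 1)
        = (∫ x in K, ((x 0) ^ 2 - 2 * c * x 0)) + ∫ _ in K, c ^ 2 * (1 : ℝ) :=
      integral_add (hi2.sub (hi1.const_mul (2 * c))) (hic.const_mul (c ^ 2))
    have hB : ∫ x in K, ((x 0) ^ 2 - 2 * c * x 0)
        = (∫ x in K, (x 0) ^ 2) - ∫ x in K, 2 * c * x 0 :=
      integral_sub hi2 (hi1.const_mul (2 * c))
    rw [← hc, e, hA, hB, integral_const_mul, integral_const_mul, hone]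
  have hcv : c * vol K = ∫ x in K, x 0 := by
    rw [hc]
    unfold centroid
    field_simp
  rw [hexp]
  have hS : (∫ x in K, x 0) = c * vol K := hcv.symm
  rw [hS]
  ring

private lemma swapi_coe (i : Fin 3) (x : Fin 3 → ℝ) :
    MeasurableEquiv.piCongrLeft (fun _ : Fin 3 => ℝ) (Equiv.swap 0 i).symm x
      = x ∘ (Equiv.swap 0 i) := by
  funext b
  have h := Equiv.piCongrLeft_apply_apply (fun _ : Fin 3 => ℝ) (Equiv.swap 0 i).symm x
    ((Equiv.swap 0 i) b)
  rw [Equiv.symm_apply_apply] at h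
  exact h

private lemma swapi_preimage (i : Fin 3) (K : Set (Fin 3 → ℝ)) :
    (MeasurableEquiv.piCongrLeft (fun _ : Fin 3 => ℝ) (Equiv.swap 0 i).symm) ⁻¹' K
      = (fun x : Fin 3 → ℝ => x ∘ (Equiv.swap 0 i)) ⁻¹' K := by
  ext x
  rw [mem_preimage, mem_preimage, swapi_coe]

private lemma swapi_integral (i : Fin 3) (K : Set (Fin 3 → ℝ)) (F : (Fin 3 → ℝ) → ℝ) :
    ∫ x in (fun x : Fin 3 → ℝ => x ∘ (Equiv.swap 0 i)) ⁻¹' K, F (x ∘ (Equiv.swap 0 i))
      = ∫ y in K, F y := by
  have hmp : MeasurePreserving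
      (MeasurableEquiv.piCongrLeft (fun _ : Fin 3 => ℝ) (Equiv.swap 0 i).symm) volume volume :=
    volume_measurePreserving_piCongrLeft (fun _ : Fin 3 => ℝ) (Equiv.swap 0 i).symm
  have key := hmp.setIntegral_preimage_emb
    (MeasurableEquiv.piCongrLeft (fun _ : Fin 3 => ℝ) (Equiv.swap 0 i).symm).measurableEmbedding
    F K
  rw [swapi_preimage] at key
  rw [← key]
  congr 1
  funext x
  rw [swapi_coe]

private lemma swapi_vol (i : Fin 3) (K : Set (Fin 3 → ℝ)) :
    vol ((fun x : Fin 3 → ℝ => x ∘ (Equiv.swap 0 i)) ⁻¹' K) = vol K := by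
  have hmp : MeasurePreserving
      (MeasurableEquiv.piCongrLeft (fun _ : Fin 3 => ℝ) (Equiv.swap 0 i).symm) volume volume :=
    volume_measurePreserving_piCongrLeft (fun _ : Fin 3 => ℝ) (Equiv.swap 0 i).symm
  have h := hmp.measure_preimage_equiv K
  rw [swapi_preimage] at h
  unfold vol
  rw [h]

/-- Sharp Berwald inequality for one coordinate of a compact convex set in `ℝ³` that is
symmetric under the reflection of that coordinate (no other symmetry is needed). -/
theorem berwald3_coord {K : Set (Fin 3 → ℝ)} (hK : IsCompact K) (hc : Convex ℝ K) (i : Fin 3)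
    (hi : ∀ x ∈ K, Function.update x i (-(x i)) ∈ K) :
    m2 K i * vol K ≤ 8 / 5 * (∫ x in K, |x i|) ^ 2 := by
  set σ : Equiv.Perm (Fin 3) := Equiv.swap 0 i with hσ
  have hσi : σ i = 0 := Equiv.swap_apply_right 0 i
  have hσσ : ∀ y : Fin 3 → ℝ, (y ∘ σ) ∘ σ = y := by
    intro y
    funext j
    simp only [Function.comp_apply, hσ, Equiv.swap_apply_self]
  set K' : Set (Fin 3 → ℝ) := (fun x : Fin 3 → ℝ => x ∘ σ) ⁻¹' K with hK'
  have hK'c : IsCompact K' := by
    have himg : K' = (fun x : Fin 3 → ℝ => x ∘ σ) '' K := by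
      ext x
      constructor
      · intro hx
        exact ⟨x ∘ σ, hx, hσσ x⟩
      · rintro ⟨y, hy, rfl⟩
        show (y ∘ σ) ∘ σ ∈ K
        rw [hσσ]
        exact hy
    rw [himg]
    exact hK.image (continuous_pi fun j => continuous_apply (σ j))
  have hK'v : Convex ℝ K' := by
    intro x hx y hy a b ha hb hab
    have h := hc (show x ∘ σ ∈ K from hx) (show y ∘ σ ∈ K from hy) ha hb hab
    exact h
  have hK'f : ∀ x ∈ K', Function.update x 0 (-(x 0)) ∈ K' := by
    intro x hx
    show Function.update x 0 (-(x 0)) ∘ σ ∈ K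
    have h := hi (x ∘ σ) hx
    have e : Function.update x 0 (-(x 0)) ∘ σ = Function.update (x ∘ σ) i (-((x ∘ σ) i)) := by
      rw [Function.update_comp_equiv]
      have h1 : σ.symm 0 = i := by
        rw [hσ, Equiv.symm_swap, Equiv.swap_apply_left]
      rw [h1, Function.comp_apply, hσi]
    rw [e]
    exact h
  have hmain := berwald3_zero hK'c hK'v hK'f
  have e1 : m2 K' 0 = m2 K i := by
    unfold m2
    have h := swapi_integral i K (fun y => (y i) ^ 2)
    simp only [Function.comp_apply] at h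
    rw [← hσ, hσi] at h
    exact h
  have e2 : ∫ x in K', |x 0| = ∫ x in K, |x i| := by
    have h := swapi_integral i K (fun y => |y i|)
    simp only [Function.comp_apply] at h
    rw [← hσ, hσi] at h
    exact h
  have e3 : vol K' = vol K := swapi_vol i K
  rw [e1, e2, e3] at hmain
  exact hmain

/-- The ratio `det Σ_K / |K|²` of a convex body in `ℝ³` invariant under the sign changes of the
last two coordinates is at most `9/8000`, provided the moment inequality `hT2` holds. -/
theorem two_flip0_ratio_le {K : Set (Fin 3 → ℝ)} (hK : IsCompact K) (hc : Convex ℝ K)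
    (hi : (interior K).Nonempty)
    (h1 : ∀ x ∈ K, Function.update x 1 (-(x 1)) ∈ K)
    (h2 : ∀ x ∈ K, Function.update x 2 (-(x 2)) ∈ K)
    (hT2 : 20480 * ((∫ x in K, |x 1|) ^ 2 * (∫ x in K, |x 2|) ^ 2 *
      (vol K * (∫ x in K, (x 0) ^ 2) - (∫ x in K, x 0) ^ 2)) ≤ 9 * (vol K) ^ 8) :
    (covMatrix K).det / (vol K) ^ 2 ≤ 9 / 8000 ∧ 0 ≤ (covMatrix K).det / (vol K) ^ 2 := by
  have hV : 0 < vol K := vol_pos_of_interior hK hi
  have hb1 := berwald3_coord hK hc 1 h1
  have hb2 := berwald3_coord hK hc 2 h2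
  have hW := vol_mul_cm0 hK hV
  rw [← hW] at hT2
  have hx1 : 0 ≤ m2 K 1 := integral_nonneg fun x => sq_nonneg (x 1)
  have hx2 : 0 ≤ m2 K 2 := integral_nonneg fun x => sq_nonneg (x 2)
  have hw : 0 ≤ cm0 K := cm0_nonneg K
  have hdet : (covMatrix K).det =
      ((vol K)⁻¹ * cm0 K) * ((vol K)⁻¹ * m2 K 1) * ((vol K)⁻¹ * m2 K 2) := by
    rw [covMatrix_two_flip0 h1 h2, Matrix.det_diagonal, Fin.prod_univ_three]
    rfl
  have hratio : (covMatrix K).det / (vol K) ^ 2 = (cm0 K * m2 K 1 * m2 K 2) / (vol K) ^ 5 := by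
    rw [hdet]
    field_simp
  rw [hratio]
  refine ⟨?_, by positivity⟩
  rw [div_le_iff₀ (by positivity)]
  set V := vol K with hVdef
  set a1 := ∫ x in K, |x 1|
  set a2 := ∫ x in K, |x 2|
  set x1 := m2 K 1
  set x2 := m2 K 2
  set W := cm0 K
  have ha1 : 0 ≤ a1 := integral_nonneg fun x => abs_nonneg (x 1)
  have ha2 : 0 ≤ a2 := integral_nonneg fun x => abs_nonneg (x 2)
  have h12 : (x1 * V) * (x2 * V) ≤ (8 / 5 * a1 ^ 2) * (8 / 5 * a2 ^ 2) :=
    mul_le_mul hb1 hb2 (by positivity) (by positivity)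
  have hVW : 0 ≤ V * W := by positivity
  have h3 : W * x1 * x2 * V ^ 3 ≤ 9 / 8000 * V ^ 5 * V ^ 3 := by
    calc W * x1 * x2 * V ^ 3 = ((x1 * V) * (x2 * V)) * (V * W) := by ring
      _ ≤ ((8 / 5 * a1 ^ 2) * (8 / 5 * a2 ^ 2)) * (V * W) :=
          mul_le_mul_of_nonneg_right h12 hVW
      _ = 64 / 25 / 20480 * (20480 * (a1 ^ 2 * a2 ^ 2 * (V * W))) := by ring
      _ ≤ 64 / 25 / 20480 * (9 * V ^ 8) := by gcongr
      _ = 9 / 8000 * V ^ 5 * V ^ 3 := by ring
  have hV3 : 0 < V ^ 3 := by positivity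
  exact le_of_mul_le_mul_right h3 hV3

/-- **Reduction, free coordinate first.**  A convex body `K ⊆ ℝ³` invariant under the sign
changes of the last two coordinates satisfies `L_K ≤ L_T` for every tetrahedron `T`, provided
the moment inequality `hT2` holds for `K`. -/
theorem two_flip0_isotropic_le (K : Set (Fin 3 → ℝ)) (hK : IsCompact K) (hc : Convex ℝ K)
    (hi : (interior K).Nonempty)
    (h1 : ∀ x ∈ K, Function.update x 1 (-(x 1)) ∈ K)
    (h2 : ∀ x ∈ K, Function.update x 2 (-(x 2)) ∈ K)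
    (hT2 : 20480 * ((∫ x in K, |x 1|) ^ 2 * (∫ x in K, |x 2|) ^ 2 *
      (vol K * (∫ x in K, (x 0) ^ 2) - (∫ x in K, x 0) ^ 2)) ≤ 9 * (vol K) ^ 8)
    (T : Fin 4 → Fin 3 → ℝ) (hT : AffineIndependent ℝ T) :
    isotropicConstant K ≤ isotropicConstant (convexHull ℝ (Set.range T)) := by
  obtain ⟨hle, hnn⟩ := two_flip0_ratio_le hK hc hi h1 h2 hT2
  unfold isotropicConstant
  rw [ratio_general_simplex T hT]
  have hnum : (9 / 8000 : ℝ) = simplexRatio 3 := by
    norm_num [simplexRatio, Nat.factorial]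
  have hpos : (0:ℝ) ≤ 1 / (2 * ((3 : ℕ) : ℝ)) := by norm_num
  rw [hnum] at hle
  exact Real.rpow_le_rpow hnn hle hpos

/-! ### Slice form -/

/-- First moment of the first coordinate by slices. -/
theorem moment0_slice {K : Set (Fin 3 → ℝ)} (hK : IsCompact K) :
    ∫ x in K, x 0 = ∫ t, t * vol (sec K t) := by
  rw [integral_slice hK (fun x => x 0) (by fun_prop)]
  congr 1
  ext t
  simp only [Fin.cons_zero]
  rw [setIntegral_const]
  simp [vol, Measure.real, mul_comm]

/-- First absolute moment of the second coordinate by slices. -/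
theorem abs1_slice {K : Set (Fin 3 → ℝ)} (hK : IsCompact K) :
    ∫ x in K, |x 1| = ∫ t, ∫ y in sec K t, |y 0| := by
  rw [integral_slice hK (fun x => |x 1|) (by fun_prop)]
  congr 1

/-- First absolute moment of the third coordinate by slices. -/
theorem abs2_slice {K : Set (Fin 3 → ℝ)} (hK : IsCompact K) :
    ∫ x in K, |x 2| = ∫ t, ∫ y in sec K t, |y 1| := by
  rw [integral_slice hK (fun x => |x 2|) (by fun_prop)]
  congr 1

/-- **Reduction, slice form.**  With `v t = |sec K t|` the area of the slice of `K` at height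
`t` (first coordinate), and the first absolute moments of the two coordinates of the slices:
if `20480 (∫ A)² (∫ B)² ((∫ v)(∫ t² v) - (∫ t v)²) ≤ 9 (∫ v)⁸`, then `L_K ≤ L_T` for every
tetrahedron `T`. -/
theorem two_flip0_isotropic_le_slices (K : Set (Fin 3 → ℝ)) (hK : IsCompact K)
    (hc : Convex ℝ K) (hi : (interior K).Nonempty)
    (h1 : ∀ x ∈ K, Function.update x 1 (-(x 1)) ∈ K)
    (h2 : ∀ x ∈ K, Function.update x 2 (-(x 2)) ∈ K)
    (hS : 20480 * ((∫ t, ∫ y in sec K t, |y 0|) ^ 2 * (∫ t, ∫ y in sec K t, |y 1|) ^ 2 *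
      ((∫ t, vol (sec K t)) * (∫ t, t ^ 2 * vol (sec K t)) - (∫ t, t * vol (sec K t)) ^ 2))
      ≤ 9 * (∫ t, vol (sec K t)) ^ 8)
    (T : Fin 4 → Fin 3 → ℝ) (hT : AffineIndependent ℝ T) :
    isotropicConstant K ≤ isotropicConstant (convexHull ℝ (Set.range T)) := by
  refine two_flip0_isotropic_le K hK hc hi h1 h2 ?_ T hT
  have hm2 : (∫ x in K, (x 0) ^ 2) = ∫ t, t ^ 2 * vol (sec K t) := m2_zero_slice hK
  rw [abs1_slice hK, abs2_slice hK, moment0_slice hK, hm2, vol_slice hK]
  exact hS

end Vale.Agent.Lib.P254.Two
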