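import Vale.Agent.Lib.P254.Two.Reduce0
import Vale.Agent.Lib.P254.Unc.Dim3

/-!
# P254: two planes of symmetry, the reduction in terms of the quarter slices

For a convex body `K ⊆ ℝ³` invariant under the sign changes of the coordinates `1` and `2`, the
slice `sec K t` at height `t` (first coordinate) is an unconditional planar convex set, and its
positive part `posPart (sec K t)` is a planar convex corner.  The moment inequality of
`Two/Reduce0.lean` is restated in terms of the areas and first moments of these corners.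
-/

open MeasureTheory Set

namespace Vale.Agent.Lib.P254.Two

open Vale.Agent.Lib.P254

/-! ### Folding a planar unconditional set onto the positive quadrant -/

/-- Folding an unconditional compact set in `ℝ²` onto the positive quadrant. -/
theorem setIntegral_posPart_two {S : Set (Fin 2 → ℝ)} (hS : IsCompact S)
    (hs : ∀ i : Fin 2, ∀ x ∈ S, Function.update x i (-(x i)) ∈ S) (f : (Fin 2 → ℝ) → ℝ)
    (hf : IntegrableOn f S) (hfs : ∀ i : Fin 2, ∀ x, f (Function.update x i (-(x i))) = f x) :
    ∫ x in S, f x = 4 * ∫ x in posPart S, f x := by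
  have hH : ∀ i : Fin 2, MeasurableSet {x : Fin 2 → ℝ | 0 ≤ x i} := fun i =>
    measurableSet_le measurable_const (measurable_pi_apply i)
  have hS0 : MeasurableSet S := hS.measurableSet
  have hS1 : MeasurableSet (S ∩ {x : Fin 2 → ℝ | 0 ≤ x 0}) := hS0.inter (hH 0)
  have e0 := setIntegral_fold hS0 0 (fun x hx => hs 0 x hx) f hf (fun x => hfs 0 x)
  have e1 := setIntegral_fold hS1 1 (fun x hx => ⟨hs 1 x hx.1, by
      show 0 ≤ signFlip 1 x 0
      rw [signFlip_ne 1 x (by decide : (0 : Fin 2) ≠ 1)]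
      exact hx.2⟩) f (hf.mono_set inter_subset_left) (fun x => hfs 1 x)
  have hset : (S ∩ {x : Fin 2 → ℝ | 0 ≤ x 0}) ∩ {x | 0 ≤ x 1} = posPart S := by
    ext x
    simp only [posPart, mem_inter_iff, mem_ofPred_eq]
    constructor
    · rintro ⟨⟨hx, h0⟩, h1⟩
      refine ⟨hx, fun i => ?_⟩
      fin_cases i
      · exact h0
      · exact h1
    · rintro ⟨hx, h⟩
      exact ⟨⟨hx, h 0⟩, h 1⟩
  rw [hset] at e1
  rw [e0, e1]
  ring

/-- The area of an unconditional compact set in `ℝ²` is four times that of its positive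
part. -/
theorem vol_posPart_two {S : Set (Fin 2 → ℝ)} (hS : IsCompact S)
    (hs : ∀ i : Fin 2, ∀ x ∈ S, Function.update x i (-(x i)) ∈ S) :
    vol S = 4 * vol (posPart S) := by
  have h := setIntegral_posPart_two hS hs (fun _ => (1:ℝ))
    (integrableOn_const hS.measure_lt_top.ne) (fun _ _ => rfl)
  rw [setIntegral_const, setIntegral_const] at h
  simpa [vol, Measure.real] using h

/-- First absolute moments of an unconditional compact set in `ℝ²` are four times the first
moments of its positive part. -/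
theorem abs_moment_posPart_two {S : Set (Fin 2 → ℝ)} (hS : IsCompact S)
    (hs : ∀ i : Fin 2, ∀ x ∈ S, Function.update x i (-(x i)) ∈ S) (i : Fin 2) :
    ∫ x in S, |x i| = 4 * ∫ x in posPart S, x i := by
  have hcont : Continuous (fun x : Fin 2 → ℝ => |x i|) := (continuous_apply i).abs
  have h := setIntegral_posPart_two hS hs (fun x => |x i|)
    (hcont.continuousOn.integrableOn_compact hS)
    (fun j x => by
      by_cases hj : i = j
      · subst hj
        simp
      · simp [Function.update_of_ne hj])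
  rw [h]
  congr 1
  apply setIntegral_congr_fun (isCompact_posPart hS).measurableSet
  intro x hx
  exact abs_of_nonneg (hx.2 i)

/-! ### The slices of a body with two planes of symmetry -/

/-- The slices of a set invariant under the sign changes of the last two coordinates are
invariant under both coordinate sign changes. -/
theorem sec_flip {K : Set (Fin 3 → ℝ)}
    (h1 : ∀ x ∈ K, Function.update x 1 (-(x 1)) ∈ K)
    (h2 : ∀ x ∈ K, Function.update x 2 (-(x 2)) ∈ K) (t : ℝ) :
    ∀ i : Fin 2, ∀ y ∈ sec K t, Function.update y i (-(y i)) ∈ sec K t := by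
  intro i y hy
  rw [mem_sec] at hy ⊢
  rw [Fin.cons_update]
  fin_cases i
  · have h := h1 _ hy
    exact h
  · have h := h2 _ hy
    exact h

/-- The positive part of a slice is a planar convex corner. -/
theorem corner_quarter {K : Set (Fin 3 → ℝ)} (hK : IsCompact K) (hc : Convex ℝ K)
    (h1 : ∀ x ∈ K, Function.update x 1 (-(x 1)) ∈ K)
    (h2 : ∀ x ∈ K, Function.update x 2 (-(x 2)) ∈ K) (t : ℝ) :
    Corner (posPart (sec K t)) :=
  corner_posPart (isCompact_sec hK t) (convex_sec hc t) (sec_flip h1 h2 t)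

/-- The quarter slices form a concave family: a convex combination of two of them is contained
in the quarter slice at the combined height. -/
theorem quarter_combo {K : Set (Fin 3 → ℝ)} (hc : Convex ℝ K) {s t a b : ℝ} (ha : 0 ≤ a)
    (hb : 0 ≤ b) (hab : a + b = 1) {y y' : Fin 2 → ℝ} (hy : y ∈ posPart (sec K s))
    (hy' : y' ∈ posPart (sec K t)) :
    a • y + b • y' ∈ posPart (sec K (a * s + b * t)) := by
  refine ⟨sec_combo hc ha hb hab hy.1 hy'.1, fun i => ?_⟩
  have h1 : 0 ≤ y i := hy.2 i
  have h2 : 0 ≤ y' i := hy'.2 i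
  simp only [Pi.add_apply, Pi.smul_apply, smul_eq_mul]
  positivity

/-- Area of a slice in terms of its quarter. -/
theorem vol_sec_quarter {K : Set (Fin 3 → ℝ)} (hK : IsCompact K)
    (h1 : ∀ x ∈ K, Function.update x 1 (-(x 1)) ∈ K)
    (h2 : ∀ x ∈ K, Function.update x 2 (-(x 2)) ∈ K) (t : ℝ) :
    vol (sec K t) = 4 * vol (posPart (sec K t)) :=
  vol_posPart_two (isCompact_sec hK t) (sec_flip h1 h2 t)

/-- First absolute moments of a slice in terms of its quarter. -/
theorem abs_sec_quarter {K : Set (Fin 3 → ℝ)} (hK : IsCompact K)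
    (h1 : ∀ x ∈ K, Function.update x 1 (-(x 1)) ∈ K)
    (h2 : ∀ x ∈ K, Function.update x 2 (-(x 2)) ∈ K) (t : ℝ) (i : Fin 2) :
    ∫ y in sec K t, |y i| = 4 * ∫ y in posPart (sec K t), y i :=
  abs_moment_posPart_two (isCompact_sec hK t) (sec_flip h1 h2 t) i

/-- **Reduction, quarter-slice form.**  Let `Q t = posPart (sec K t)` be the quarter slices of
`K` (planar convex corners).  If
`1280 (∫ ∫_{Q t} y₀)² (∫ ∫_{Q t} y₁)² ((∫ |Q t|)(∫ t² |Q t|) - (∫ t |Q t|)²) ≤ 9 (∫ |Q t|)⁸`,
that is `V³ ≥ (16 √5 / 3) M₀ M₁ σ` for the quarter body, then `L_K ≤ L_T` for every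
tetrahedron `T`. -/
theorem two_flip0_isotropic_le_quarter (K : Set (Fin 3 → ℝ)) (hK : IsCompact K)
    (hc : Convex ℝ K) (hi : (interior K).Nonempty)
    (h1 : ∀ x ∈ K, Function.update x 1 (-(x 1)) ∈ K)
    (h2 : ∀ x ∈ K, Function.update x 2 (-(x 2)) ∈ K)
    (hQ : 1280 * ((∫ t, ∫ y in posPart (sec K t), y 0) ^ 2 *
      (∫ t, ∫ y in posPart (sec K t), y 1) ^ 2 *
      ((∫ t, vol (posPart (sec K t))) * (∫ t, t ^ 2 * vol (posPart (sec K t)))
        - (∫ t, t * vol (posPart (sec K t))) ^ 2))
      ≤ 9 * (∫ t, vol (posPart (sec K t))) ^ 8)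
    (T : Fin 4 → Fin 3 → ℝ) (hT : AffineIndependent ℝ T) :
    isotropicConstant K ≤ isotropicConstant (convexHull ℝ (Set.range T)) := by
  refine two_flip0_isotropic_le_slices K hK hc hi h1 h2 ?_ T hT
  have eA : (∫ t, ∫ y in sec K t, |y 0|) = 4 * ∫ t, ∫ y in posPart (sec K t), y 0 := by
    rw [← integral_const_mul]
    congr 1
    funext t
    exact abs_sec_quarter hK h1 h2 t 0
  have eB : (∫ t, ∫ y in sec K t, |y 1|) = 4 * ∫ t, ∫ y in posPart (sec K t), y 1 := by
    rw [← integral_const_mul]
    congr 1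
    funext t
    exact abs_sec_quarter hK h1 h2 t 1
  have eV : (∫ t, vol (sec K t)) = 4 * ∫ t, vol (posPart (sec K t)) := by
    rw [← integral_const_mul]
    congr 1
    funext t
    exact vol_sec_quarter hK h1 h2 t
  have e1 : (∫ t, t * vol (sec K t)) = 4 * ∫ t, t * vol (posPart (sec K t)) := by
    rw [← integral_const_mul]
    congr 1
    funext t
    rw [vol_sec_quarter hK h1 h2 t]
    ring
  have e2 : (∫ t, t ^ 2 * vol (sec K t)) = 4 * ∫ t, t ^ 2 * vol (posPart (sec K t)) := by
    rw [← integral_const_mul]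
    congr 1
    funext t
    rw [vol_sec_quarter hK h1 h2 t]
    ring
  rw [eA, eB, eV, e1, e2]
  set A := ∫ t, ∫ y in posPart (sec K t), y 0
  set B := ∫ t, ∫ y in posPart (sec K t), y 1
  set V := ∫ t, vol (posPart (sec K t))
  set S1 := ∫ t, t * vol (posPart (sec K t))
  set S2 := ∫ t, t ^ 2 * vol (posPart (sec K t))
  have hl : 20480 * ((4 * A) ^ 2 * (4 * B) ^ 2 * (4 * V * (4 * S2) - (4 * S1) ^ 2))
      = 65536 * (1280 * (A ^ 2 * B ^ 2 * (V * S2 - S1 ^ 2))) := by ring
  have hr : 9 * (4 * V) ^ 8 = 65536 * (9 * V ^ 8) := by ring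
  rw [hl, hr]
  exact mul_le_mul_of_nonneg_left hQ (by norm_num)

end Vale.Agent.Lib.P254.Two
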