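import Vale.Agent.Lib.P254.Unc.PosPart
import Vale.Agent.Lib.P254.Sym.Berwald3
import Vale.Agent.Lib.P254.Sym.Axis

/-!
# P254: convex bodies in `ℝ³` with two orthogonal planes of symmetry, the reduction

For a convex body `K ⊆ ℝ³` invariant under the sign changes of the coordinates `0` and `1`
(no symmetry in the coordinate `2`) the covariance matrix is diagonal, and the sharp Berwald
inequality applies to the two symmetric coordinates.  Hence the inequality

`20480 (∫_K |x₀|)² (∫_K |x₁|)² (|K| ∫_K x₂² - (∫_K x₂)²) ≤ 9 |K|⁸`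

(that is, `E|x₀| · E|x₁| · σ(x₂) ≤ 3 / (64 √5) · |K|`) implies `L_K ≤ L_simplex`.
-/

open MeasureTheory Set

namespace Vale.Agent.Lib.P254.Two

open Vale.Agent.Lib.P254

section OneFlip

variable {n : ℕ}

/-- Integrals over a set invariant under one coordinate sign change are invariant under that
sign change. -/
lemma flip_integral {K : Set (Fin n → ℝ)} (k : Fin n)
    (hflip : ∀ x ∈ K, Function.update x k (-(x k)) ∈ K) (F : (Fin n → ℝ) → ℝ) :
    ∫ x in K, F (signFlip k x) = ∫ x in K, F x := by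
  have hpre : signFlip k ⁻¹' K = K := by
    ext x
    constructor
    · intro hx
      have h1 : signFlip k (signFlip k x) ∈ K := hflip _ hx
      rw [signFlip_invol k x] at h1
      exact h1
    · intro hx
      exact hflip x hx
  have h := (signFlip_mp (n := n) k).setIntegral_preimage_emb
    (signFlip_measurableEmbedding k) F K
  rw [hpre] at h
  exact h

/-- The first moment of a flipped coordinate vanishes. -/
lemma first_moment_zero {K : Set (Fin n → ℝ)} (k : Fin n)
    (hflip : ∀ x ∈ K, Function.update x k (-(x k)) ∈ K) : ∫ x in K, x k = 0 := by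
  have h := flip_integral k hflip (fun x => x k)
  simp only [signFlip_self] at h
  rw [integral_neg] at h
  linarith

/-- The centroid coordinate of a flipped coordinate vanishes. -/
lemma centroid_zero {K : Set (Fin n → ℝ)} (k : Fin n)
    (hflip : ∀ x ∈ K, Function.update x k (-(x k)) ∈ K) : centroid K k = 0 := by
  unfold centroid
  rw [first_moment_zero k hflip, mul_zero]

/-- Mixed moments of a flipped coordinate with a shifted other coordinate vanish. -/
lemma mixed_moment_zero {K : Set (Fin n → ℝ)} {k j : Fin n}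
    (hflip : ∀ x ∈ K, Function.update x k (-(x k)) ∈ K) (hjk : j ≠ k) (c : ℝ) :
    ∫ x in K, x k * (x j - c) = 0 := by
  have h := flip_integral k hflip (fun x => x k * (x j - c))
  simp only [signFlip_self, signFlip_ne k _ hjk] at h
  have h2 : ∫ x in K, -(x k) * (x j - c) = -∫ x in K, x k * (x j - c) := by
    rw [← integral_neg]
    congr 1
    funext x
    ring
  rw [h2] at h
  linarith

/-- The covariance entry of a flipped coordinate with another coordinate vanishes. -/
lemma cov_entry_zero {K : Set (Fin n → ℝ)} {k j : Fin n}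
    (hflip : ∀ x ∈ K, Function.update x k (-(x k)) ∈ K) (hjk : j ≠ k) :
    ∫ x in K, (x k - centroid K k) * (x j - centroid K j) = 0 := by
  rw [centroid_zero k hflip]
  simp only [sub_zero]
  exact mixed_moment_zero hflip hjk _

/-- The covariance entry of a coordinate with a flipped coordinate vanishes. -/
lemma cov_entry_zero' {K : Set (Fin n → ℝ)} {k j : Fin n}
    (hflip : ∀ x ∈ K, Function.update x k (-(x k)) ∈ K) (hjk : j ≠ k) :
    ∫ x in K, (x j - centroid K j) * (x k - centroid K k) = 0 := by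
  have h := cov_entry_zero hflip hjk
  have e : (fun x : Fin n → ℝ => (x j - centroid K j) * (x k - centroid K k))
      = fun x => (x k - centroid K k) * (x j - centroid K j) := by
    funext x
    ring
  rw [e]
  exact h

end OneFlip

/-- The centred second moment of the last coordinate. -/
noncomputable def cm2 (K : Set (Fin 3 → ℝ)) : ℝ := ∫ x in K, (x 2 - centroid K 2) ^ 2

lemma cm2_nonneg (K : Set (Fin 3 → ℝ)) : 0 ≤ cm2 K :=
  integral_nonneg fun _ => sq_nonneg _

/-- The covariance matrix of a set in `ℝ³` invariant under the sign changes of the first two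
coordinates is diagonal. -/
theorem covMatrix_two_flip {K : Set (Fin 3 → ℝ)}
    (h0 : ∀ x ∈ K, Function.update x 0 (-(x 0)) ∈ K)
    (h1 : ∀ x ∈ K, Function.update x 1 (-(x 1)) ∈ K) :
    covMatrix K = Matrix.diagonal
      ![(vol K)⁻¹ * m2 K 0, (vol K)⁻¹ * m2 K 1, (vol K)⁻¹ * cm2 K] := by
  ext a b
  unfold covMatrix
  rw [Matrix.of_apply]
  by_cases hab : a = b
  · subst hab
    rw [Matrix.diagonal_apply_eq]
    fin_cases a
    · show (vol K)⁻¹ * ∫ x in K, (x 0 - centroid K 0) * (x 0 - centroid K 0)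
        = (vol K)⁻¹ * m2 K 0
      rw [centroid_zero 0 h0]
      unfold m2
      congr 2
      funext x
      ring
    · show (vol K)⁻¹ * ∫ x in K, (x 1 - centroid K 1) * (x 1 - centroid K 1)
        = (vol K)⁻¹ * m2 K 1
      rw [centroid_zero 1 h1]
      unfold m2
      congr 2
      funext x
      ring
    · show (vol K)⁻¹ * ∫ x in K, (x 2 - centroid K 2) * (x 2 - centroid K 2)
        = (vol K)⁻¹ * cm2 K
      unfold cm2
      congr 2
      funext x
      ring
  · rw [Matrix.diagonal_apply_ne _ hab]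
    have hz : ∫ x in K, (x a - centroid K a) * (x b - centroid K b) = 0 := by
      by_cases ha0 : a = 0
      · subst ha0
        exact cov_entry_zero h0 (Ne.symm hab)
      · by_cases ha1 : a = 1
        · subst ha1
          exact cov_entry_zero h1 (Ne.symm hab)
        · by_cases hb0 : b = 0
          · subst hb0
            exact cov_entry_zero' h0 hab
          · by_cases hb1 : b = 1
            · subst hb1
              exact cov_entry_zero' h1 hab
            · exfalso
              have ha2 : a = 2 := by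
                fin_cases a
                · exact absurd rfl ha0
                · exact absurd rfl ha1
                · rfl
              have hb2 : b = 2 := by
                fin_cases b
                · exact absurd rfl hb0
                · exact absurd rfl hb1
                · rfl
              exact hab (ha2.trans hb2.symm)
    rw [hz, mul_zero]

/-- The centred second moment in terms of the raw moments. -/
theorem vol_mul_cm2 {K : Set (Fin 3 → ℝ)} (hK : IsCompact K) (hV : 0 < vol K) :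
    vol K * cm2 K = vol K * (∫ x in K, (x 2) ^ 2) - (∫ x in K, x 2) ^ 2 := by
  have hi1 : IntegrableOn (fun x : Fin 3 → ℝ => x 2) K :=
    (continuous_apply 2).continuousOn.integrableOn_compact hK
  have hi2 : IntegrableOn (fun x : Fin 3 → ℝ => (x 2) ^ 2) K :=
    ((continuous_apply 2).pow 2).continuousOn.integrableOn_compact hK
  have hic : IntegrableOn (fun _ : Fin 3 → ℝ => (1 : ℝ)) K :=
    integrableOn_const hK.measure_lt_top.ne
  set c := centroid K 2 with hc
  have hone : ∫ _ in K, (1 : ℝ) = vol K := by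
    rw [setIntegral_const]
    simp [vol, Measure.real]
  have hexp : cm2 K = (∫ x in K, (x 2) ^ 2) - 2 * c * (∫ x in K, x 2) + c ^ 2 * vol K := by
    unfold cm2
    have e : (fun x : Fin 3 → ℝ => (x 2 - c) ^ 2)
        = fun x => ((x 2) ^ 2 - 2 * c * x 2) + c ^ 2 * 1 := by
      funext x
      ring
    have hA : ∫ x in K, ((x 2) ^ 2 - 2 * c * x 2 + c ^ 2 * 1)
        = (∫ x in K, ((x 2) ^ 2 - 2 * c * x 2)) + ∫ _ in K, c ^ 2 * (1 : ℝ) :=
      integral_add (hi2.sub (hi1.const_mul (2 * c))) (hic.const_mul (c ^ 2))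
    have hB : ∫ x in K, ((x 2) ^ 2 - 2 * c * x 2)
        = (∫ x in K, (x 2) ^ 2) - ∫ x in K, 2 * c * x 2 :=
      integral_sub hi2 (hi1.const_mul (2 * c))
    rw [← hc, e, hA, hB, integral_const_mul, integral_const_mul, hone]
  have hcv : c * vol K = ∫ x in K, x 2 := by
    rw [hc]
    unfold centroid
    field_simp
  rw [hexp]
  have hS : (∫ x in K, x 2) = c * vol K := hcv.symm
  rw [hS]
  ring

private lemma swap_coe (x : Fin 3 → ℝ) :
    MeasurableEquiv.piCongrLeft (fun _ : Fin 3 => ℝ) (Equiv.swap (0 : Fin 3) 1).symm x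
      = x ∘ (Equiv.swap (0 : Fin 3) 1) := by
  funext b
  have h := Equiv.piCongrLeft_apply_apply (fun _ : Fin 3 => ℝ) (Equiv.swap (0 : Fin 3) 1).symm x
    ((Equiv.swap (0 : Fin 3) 1) b)
  rw [Equiv.symm_apply_apply] at h
  exact h

private lemma swap_preimage (K : Set (Fin 3 → ℝ)) :
    (MeasurableEquiv.piCongrLeft (fun _ : Fin 3 => ℝ) (Equiv.swap (0 : Fin 3) 1).symm) ⁻¹' K
      = (fun x : Fin 3 → ℝ => x ∘ (Equiv.swap (0 : Fin 3) 1)) ⁻¹' K := by
  ext x
  rw [mem_preimage, mem_preimage, swap_coe]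

private lemma swap_integral (K : Set (Fin 3 → ℝ)) (F : (Fin 3 → ℝ) → ℝ) :
    ∫ x in (fun x : Fin 3 → ℝ => x ∘ (Equiv.swap (0 : Fin 3) 1)) ⁻¹' K,
        F (x ∘ (Equiv.swap (0 : Fin 3) 1))
      = ∫ y in K, F y := by
  have hmp : MeasurePreserving
      (MeasurableEquiv.piCongrLeft (fun _ : Fin 3 => ℝ) (Equiv.swap (0 : Fin 3) 1).symm)
      volume volume :=
    volume_measurePreserving_piCongrLeft (fun _ : Fin 3 => ℝ) (Equiv.swap (0 : Fin 3) 1).symm
  have key := hmp.setIntegral_preimage_emb
    (MeasurableEquiv.piCongrLeft (fun _ : Fin 3 => ℝ)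
      (Equiv.swap (0 : Fin 3) 1).symm).measurableEmbedding
    F K
  rw [swap_preimage] at key
  rw [← key]
  congr 1
  funext x
  rw [swap_coe]

private lemma swap_vol (K : Set (Fin 3 → ℝ)) :
    vol ((fun x : Fin 3 → ℝ => x ∘ (Equiv.swap (0 : Fin 3) 1)) ⁻¹' K) = vol K := by
  have hmp : MeasurePreserving
      (MeasurableEquiv.piCongrLeft (fun _ : Fin 3 => ℝ) (Equiv.swap (0 : Fin 3) 1).symm)
      volume volume :=
    volume_measurePreserving_piCongrLeft (fun _ : Fin 3 => ℝ) (Equiv.swap (0 : Fin 3) 1).symm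
  have h := hmp.measure_preimage_equiv K
  rw [swap_preimage] at h
  unfold vol
  rw [h]

/-- Sharp Berwald inequality for the second coordinate of a compact convex set in `ℝ³` that
is symmetric under the reflection of that coordinate (no other symmetry is needed). -/
theorem berwald3_one {K : Set (Fin 3 → ℝ)} (hK : IsCompact K) (hc : Convex ℝ K)
    (h1 : ∀ x ∈ K, Function.update x 1 (-(x 1)) ∈ K) :
    m2 K 1 * vol K ≤ 8 / 5 * (∫ x in K, |x 1|) ^ 2 := by
  set σ : Equiv.Perm (Fin 3) := Equiv.swap 0 1 with hσ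
  have hσi : σ 1 = 0 := Equiv.swap_apply_right 0 1
  have hσσ : ∀ y : Fin 3 → ℝ, (y ∘ σ) ∘ σ = y := by
    intro y
    funext j
    simp only [Function.comp_apply, hσ, Equiv.swap_apply_self]
  set K' : Set (Fin 3 → ℝ) := (fun x : Fin 3 → ℝ => x ∘ σ) ⁻¹' K with hK'
  have hK'c : IsCompact K' := by
    have himg : K' = (fun x : Fin 3 → ℝ => x ∘ σ) '' K := by
      ext x
      constructor
      · intro hx
        exact ⟨x ∘ σ, hx, hσσ x⟩
      · rintro ⟨y, hy, rfl⟩
        show (y ∘ σ) ∘ σ ∈ K
        rw [hσσ]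
        exact hy
    rw [himg]
    exact hK.image (continuous_pi fun j => continuous_apply (σ j))
  have hK'v : Convex ℝ K' := by
    intro x hx y hy a b ha hb hab
    have h := hc (show x ∘ σ ∈ K from hx) (show y ∘ σ ∈ K from hy) ha hb hab
    exact h
  have hK'f : ∀ x ∈ K', Function.update x 0 (-(x 0)) ∈ K' := by
    intro x hx
    show Function.update x 0 (-(x 0)) ∘ σ ∈ K
    have h := h1 (x ∘ σ) hx
    have e : Function.update x 0 (-(x 0)) ∘ σ = Function.update (x ∘ σ) 1 (-((x ∘ σ) 1)) := by
      rw [Function.update_comp_equiv]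
      have h1' : σ.symm 0 = 1 := by
        rw [hσ, Equiv.symm_swap, Equiv.swap_apply_left]
      rw [h1', Function.comp_apply, hσi]
    rw [e]
    exact h
  have hmain := berwald3_zero hK'c hK'v hK'f
  have e1 : m2 K' 0 = m2 K 1 := by
    unfold m2
    have h := swap_integral K (fun y => (y 1) ^ 2)
    simp only [Function.comp_apply] at h
    rw [← hσ, hσi] at h
    exact h
  have e2 : ∫ x in K', |x 0| = ∫ x in K, |x 1| := by
    have h := swap_integral K (fun y => |y 1|)
    simp only [Function.comp_apply] at h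
    rw [← hσ, hσi] at h
    exact h
  have e3 : vol K' = vol K := swap_vol K
  rw [e1, e2, e3] at hmain
  exact hmain

/-- The ratio `det Σ_K / |K|²` of a convex body in `ℝ³` with two orthogonal planes of symmetry
is at most the ratio `9/8000` of the tetrahedra, provided the moment inequality `hT2` holds. -/
theorem two_flip_ratio_le {K : Set (Fin 3 → ℝ)} (hK : IsCompact K) (hc : Convex ℝ K)
    (hi : (interior K).Nonempty)
    (h0 : ∀ x ∈ K, Function.update x 0 (-(x 0)) ∈ K)
    (h1 : ∀ x ∈ K, Function.update x 1 (-(x 1)) ∈ K)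
    (hT2 : 20480 * ((∫ x in K, |x 0|) ^ 2 * (∫ x in K, |x 1|) ^ 2 *
      (vol K * (∫ x in K, (x 2) ^ 2) - (∫ x in K, x 2) ^ 2)) ≤ 9 * (vol K) ^ 8) :
    (covMatrix K).det / (vol K) ^ 2 ≤ 9 / 8000 ∧ 0 ≤ (covMatrix K).det / (vol K) ^ 2 := by
  have hV : 0 < vol K := vol_pos_of_interior hK hi
  have hb0 := berwald3_zero hK hc h0
  have hb1 := berwald3_one hK hc h1
  have hW := vol_mul_cm2 hK hV
  rw [← hW] at hT2
  have hx0 : 0 ≤ m2 K 0 := integral_nonneg fun x => sq_nonneg (x 0)
  have hx1 : 0 ≤ m2 K 1 := integral_nonneg fun x => sq_nonneg (x 1)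
  have hw : 0 ≤ cm2 K := cm2_nonneg K
  have hdet : (covMatrix K).det =
      ((vol K)⁻¹ * m2 K 0) * ((vol K)⁻¹ * m2 K 1) * ((vol K)⁻¹ * cm2 K) := by
    rw [covMatrix_two_flip h0 h1, Matrix.det_diagonal, Fin.prod_univ_three]
    rfl
  have hratio : (covMatrix K).det / (vol K) ^ 2 = (m2 K 0 * m2 K 1 * cm2 K) / (vol K) ^ 5 := by
    rw [hdet]
    field_simp
  rw [hratio]
  refine ⟨?_, by positivity⟩
  rw [div_le_iff₀ (by positivity)]
  set V := vol K with hVdef
  set a0 := ∫ x in K, |x 0|
  set a1 := ∫ x in K, |x 1|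
  set x0 := m2 K 0
  set x1 := m2 K 1
  set W := cm2 K
  have ha0 : 0 ≤ a0 := integral_nonneg fun x => abs_nonneg (x 0)
  have ha1 : 0 ≤ a1 := integral_nonneg fun x => abs_nonneg (x 1)
  have h01 : (x0 * V) * (x1 * V) ≤ (8 / 5 * a0 ^ 2) * (8 / 5 * a1 ^ 2) :=
    mul_le_mul hb0 hb1 (by positivity) (by positivity)
  have hVW : 0 ≤ V * W := by positivity
  have h3 : x0 * x1 * W * V ^ 3 ≤ 9 / 8000 * V ^ 5 * V ^ 3 := by
    calc x0 * x1 * W * V ^ 3 = ((x0 * V) * (x1 * V)) * (V * W) := by ring
      _ ≤ ((8 / 5 * a0 ^ 2) * (8 / 5 * a1 ^ 2)) * (V * W) :=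
          mul_le_mul_of_nonneg_right h01 hVW
      _ = 64 / 25 / 20480 * (20480 * (a0 ^ 2 * a1 ^ 2 * (V * W))) := by ring
      _ ≤ 64 / 25 / 20480 * (9 * V ^ 8) := by gcongr
      _ = 9 / 8000 * V ^ 5 * V ^ 3 := by ring
  have hV3 : 0 < V ^ 3 := by positivity
  exact le_of_mul_le_mul_right h3 hV3

/-- **Reduction.**  A convex body `K ⊆ ℝ³` invariant under the sign changes of the first two
coordinates satisfies `L_K ≤ L_T` for every tetrahedron `T`, provided the moment inequality
`hT2` holds for `K`. -/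
theorem two_flip_isotropic_le (K : Set (Fin 3 → ℝ)) (hK : IsCompact K) (hc : Convex ℝ K)
    (hi : (interior K).Nonempty)
    (h0 : ∀ x ∈ K, Function.update x 0 (-(x 0)) ∈ K)
    (h1 : ∀ x ∈ K, Function.update x 1 (-(x 1)) ∈ K)
    (hT2 : 20480 * ((∫ x in K, |x 0|) ^ 2 * (∫ x in K, |x 1|) ^ 2 *
      (vol K * (∫ x in K, (x 2) ^ 2) - (∫ x in K, x 2) ^ 2)) ≤ 9 * (vol K) ^ 8)
    (T : Fin 4 → Fin 3 → ℝ) (hT : AffineIndependent ℝ T) :
    isotropicConstant K ≤ isotropicConstant (convexHull ℝ (Set.range T)) := by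
  obtain ⟨hle, hnn⟩ := two_flip_ratio_le hK hc hi h0 h1 hT2
  unfold isotropicConstant
  rw [ratio_general_simplex T hT]
  have hnum : (9 / 8000 : ℝ) = simplexRatio 3 := by
    norm_num [simplexRatio, Nat.factorial]
  have hpos : (0:ℝ) ≤ 1 / (2 * ((3 : ℕ) : ℝ)) := by norm_num
  rw [hnum] at hle
  exact Real.rpow_le_rpow hnn hle hpos

end Vale.Agent.Lib.P254.Two
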